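import Mathlib

/-!
# P298: topological right-triviality of a family of function germs
-/

namespace Vale.Agent.Lib.P298

open Metric Set

/-- Topological right-triviality (after shrinking the parameter disc to radius `r`) of the family
`f_t = F (·, t)` along `{0} × Δ`: there are an open neighbourhood `U = Φ.source` of `{0} × Δ_r` in
`E × Δ_r` and a homeomorphism `Φ` of `U` onto an open set `Φ.target` (which contains `{0} × Δ_r`,
because `Φ (0, t) = (0, t)`), of the form `Φ (x, t) = (φ_t x, t)` with `φ_t 0 = 0`, such that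
`f_t (φ_t x) = f_0 x` on `U`. -/
def RightTrivial {E : Type*} [TopologicalSpace E] [Zero E] (F : E × ℂ → ℂ) : Prop :=
  ∃ r : ℝ, 0 < r ∧ ∃ Φ : OpenPartialHomeomorph (E × ℂ) (E × ℂ),
    Φ.source ⊆ {p | p.2 ∈ ball (0 : ℂ) r} ∧
    (∀ t ∈ ball (0 : ℂ) r, ((0 : E), t) ∈ Φ.source ∧ Φ (0, t) = (0, t)) ∧
    (∀ p ∈ Φ.source, (Φ p).2 = p.2 ∧ F (Φ p) = F (p.1, 0))

end Vale.Agent.Lib.P298
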