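import Mathlib
import Vale.Agent.Lib.P298.Defs

namespace Vale.Agent.Lib.P298

open Metric Set

/-- Straightening lemma: a function `σ (x, t)` with strict derivative `κ • dx` at the origin and
vanishing on the `t`-axis is carried to `σ (x, 0)` by a fibred local homeomorphism. -/
theorem straighten (σ : ℂ × ℂ → ℂ) (κ : ℂ) (hκ : κ ≠ 0)
    (hσ : HasStrictFDerivAt σ (κ • ContinuousLinearMap.fst ℂ ℂ ℂ) (0, 0))
    (h0 : ∀ t, σ (0, t) = 0) :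
    ∃ r : ℝ, 0 < r ∧ ∃ Φ : OpenPartialHomeomorph (ℂ × ℂ) (ℂ × ℂ),
      Φ.source ⊆ {p | p.2 ∈ ball (0 : ℂ) r} ∧
      (∀ t ∈ ball (0 : ℂ) r, ((0 : ℂ), t) ∈ Φ.source ∧ Φ (0, t) = (0, t)) ∧
      (∀ p ∈ Φ.source, (Φ p).2 = p.2 ∧ σ (Φ p) = σ (p.1, 0)) := by
  let L : (ℂ × ℂ) ≃L[ℂ] (ℂ × ℂ) :=
    ContinuousLinearEquiv.equivOfInverse
      ((κ • ContinuousLinearMap.fst ℂ ℂ ℂ).prod (ContinuousLinearMap.snd ℂ ℂ ℂ))
      ((κ⁻¹ • ContinuousLinearMap.fst ℂ ℂ ℂ).prod (ContinuousLinearMap.snd ℂ ℂ ℂ))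
      (by
        intro p
        ext
        · simp [hκ]
        · simp)
      (by
        intro p
        ext
        · simp [hκ]
        · simp)
  have hA : HasStrictFDerivAt (fun p : ℂ × ℂ => (σ p, p.2)) (L : (ℂ × ℂ) →L[ℂ] (ℂ × ℂ)) (0, 0) :=
    hσ.prodMk hasStrictFDerivAt_snd
  have hj : HasStrictFDerivAt (fun p : ℂ × ℂ => (p.1, (0 : ℂ)))
      ((ContinuousLinearMap.fst ℂ ℂ ℂ).prod (0 : (ℂ × ℂ) →L[ℂ] ℂ)) (0, 0) :=
    hasStrictFDerivAt_fst.prodMk (hasStrictFDerivAt_const (0 : ℂ) _)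
  have hσ0 : HasStrictFDerivAt (fun p : ℂ × ℂ => σ (p.1, 0))
      (κ • ContinuousLinearMap.fst ℂ ℂ ℂ) (0, 0) := by
    have h1 : HasStrictFDerivAt σ (κ • ContinuousLinearMap.fst ℂ ℂ ℂ)
      ((fun p : ℂ × ℂ => (p.1, (0 : ℂ))) (0, 0)) := hσ
    have h2 := h1.comp (0, 0) hj
    have e : (κ • ContinuousLinearMap.fst ℂ ℂ ℂ).comp
        ((ContinuousLinearMap.fst ℂ ℂ ℂ).prod (0 : (ℂ × ℂ) →L[ℂ] ℂ))
        = κ • ContinuousLinearMap.fst ℂ ℂ ℂ := by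
      ext <;> simp
    rw [e] at h2
    exact h2
  have hB : HasStrictFDerivAt (fun p : ℂ × ℂ => (σ (p.1, 0), p.2))
      (L : (ℂ × ℂ) →L[ℂ] (ℂ × ℂ)) (0, 0) :=
    hσ0.prodMk hasStrictFDerivAt_snd
  let e := hA.toOpenPartialHomeomorph (fun p : ℂ × ℂ => (σ p, p.2))
  let e₀ := hB.toOpenPartialHomeomorph (fun p : ℂ × ℂ => (σ (p.1, 0), p.2))
  have he : ∀ p, e p = (σ p, p.2) := fun p => rfl
  have he₀ : ∀ p, e₀ p = (σ (p.1, 0), p.2) := fun p => rfl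
  have hes : ((0 : ℂ), (0 : ℂ)) ∈ e.source := hA.mem_toOpenPartialHomeomorph_source
  have he₀s : ((0 : ℂ), (0 : ℂ)) ∈ e₀.source := hB.mem_toOpenPartialHomeomorph_source
  let W := e₀.trans e.symm
  have hWs : ∀ p, p ∈ W.source ↔ p ∈ e₀.source ∧ e₀ p ∈ e.target := by
    intro p
    simp [W]
  have hW0 : ((0 : ℂ), (0 : ℂ)) ∈ W.source := by
    rw [hWs]
    refine ⟨he₀s, ?_⟩
    have : e₀ (0, 0) = e (0, 0) := by rw [he, he₀]
    rw [this]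
    exact e.map_source hes
  have hO : IsOpen (W.source ∩ e.source) := W.open_source.inter e.open_source
  have hc : Continuous (fun t : ℂ => ((0 : ℂ), t)) := by fun_prop
  obtain ⟨r, hr, hball⟩ := Metric.isOpen_iff.1 (hO.preimage hc) 0 ⟨hW0, hes⟩
  have hS : IsOpen {p : ℂ × ℂ | p.2 ∈ ball (0 : ℂ) r} := isOpen_ball.preimage continuous_snd
  refine ⟨r, hr, W.restrOpen _ hS, ?_, ?_, ?_⟩
  · intro p hp
    rw [OpenPartialHomeomorph.restrOpen_source] at hp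
    exact hp.2
  · intro t ht
    have h1 : ((0 : ℂ), t) ∈ W.source ∩ e.source := hball ht
    refine ⟨?_, ?_⟩
    · rw [OpenPartialHomeomorph.restrOpen_source]
      exact ⟨h1.1, ht⟩
    · show e.symm (e₀ (0, t)) = (0, t)
      have : e₀ (0, t) = e (0, t) := by rw [he, he₀, h0, h0]
      rw [this]
      exact e.left_inv h1.2
  · intro p hp
    rw [OpenPartialHomeomorph.restrOpen_source] at hp
    have h1 := (hWs p).1 hp.1
    have h2 : e (e.symm (e₀ p)) = e₀ p := e.right_inv h1.2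
    rw [he, he₀] at h2
    have h3 := Prod.ext_iff.1 h2
    exact ⟨h3.2, h3.1⟩

/-- A one-variable holomorphic family of constant order `c` at the origin is right-trivial. -/
theorem rightTrivial_one (c : ℕ) (hc : c ≠ 0) (u : ℂ × ℂ → ℂ) (hu : AnalyticAt ℂ u (0, 0))
    (hu0 : u (0, 0) ≠ 0) : RightTrivial (fun p : ℂ × ℂ => p.1 ^ c * u p) := by
  obtain ⟨κ, hκ⟩ := IsAlgClosed.exists_pow_nat_eq (u (0, 0)) (Nat.pos_of_ne_zero hc)
  have hκ0 : κ ≠ 0 := by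
    rintro rfl
    rw [zero_pow hc] at hκ
    exact hu0 hκ.symm
  let g : ℂ × ℂ → ℂ := fun p => (u p / u (0, 0)) ^ ((c : ℂ)⁻¹)
  have hgc : ∀ p, g p ^ c = u p / u (0, 0) := fun p => Complex.cpow_nat_inv_pow _ hc
  have hg0 : g (0, 0) = 1 := by
    show (u (0, 0) / u (0, 0)) ^ ((c : ℂ)⁻¹) = 1
    rw [div_self hu0, Complex.one_cpow]
  obtain ⟨g', hg'⟩ : ∃ g', HasStrictFDerivAt g g' (0, 0) := by
    have h1 : HasStrictFDerivAt (fun p : ℂ × ℂ => u p / u (0, 0))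
        ((u (0, 0))⁻¹ • fderiv ℂ u (0, 0)) (0, 0) := by
      have h0 := hu.hasStrictFDerivAt.const_mul ((u (0, 0))⁻¹)
      have e : (fun p : ℂ × ℂ => u p / u (0, 0)) = fun p => (u (0, 0))⁻¹ * u p := by
        funext p
        rw [div_eq_mul_inv, mul_comm]
      rw [e]
      exact h0
    have h2 : HasStrictFDerivAt (fun _ : ℂ × ℂ => ((c : ℂ)⁻¹)) (0 : (ℂ × ℂ) →L[ℂ] ℂ) (0, 0) :=
      hasStrictFDerivAt_const _ _
    have h3 : u (0, 0) / u (0, 0) ∈ Complex.slitPlane := by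
      rw [div_self hu0]
      exact Complex.one_mem_slitPlane
    exact ⟨_, h1.cpow h2 h3⟩
  let σ : ℂ × ℂ → ℂ := fun p => (κ * p.1) * g p
  have hσ : HasStrictFDerivAt σ (κ • ContinuousLinearMap.fst ℂ ℂ ℂ) (0, 0) := by
    have h1 : HasStrictFDerivAt (fun p : ℂ × ℂ => κ * p.1) (κ • ContinuousLinearMap.fst ℂ ℂ ℂ)
        (0, 0) := hasStrictFDerivAt_fst.const_mul κ
    have h2 := h1.mul hg'
    have e : (κ * ((0 : ℂ), (0 : ℂ)).1) • g' + g (0, 0) • (κ • ContinuousLinearMap.fst ℂ ℂ ℂ)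
        = κ • ContinuousLinearMap.fst ℂ ℂ ℂ := by
      rw [hg0]
      apply ContinuousLinearMap.ext
      intro v
      simp
    rw [e] at h2
    exact h2
  have hσ0 : ∀ t, σ (0, t) = 0 := by
    intro t
    show (κ * 0) * g (0, t) = 0
    simp
  have hσc : ∀ p : ℂ × ℂ, σ p ^ c = p.1 ^ c * u p := by
    intro p
    show ((κ * p.1) * g p) ^ c = p.1 ^ c * u p
    rw [mul_pow, mul_pow, hgc, hκ]
    field_simp
  obtain ⟨r, hr, Φ, h1, h2, h3⟩ := straighten σ κ hκ0 hσ hσ0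
  refine ⟨r, hr, Φ, h1, h2, fun p hp => ⟨(h3 p hp).1, ?_⟩⟩
  show (Φ p).1 ^ c * u (Φ p) = p.1 ^ c * u (p.1, 0)
  rw [← hσc, (h3 p hp).2, hσc]

end Vale.Agent.Lib.P298
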