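import Mathlib
import Vale.Agent.Lib.P298.Defs

namespace Vale.Agent.Lib.P298

open Metric Set

variable {E₁ E₂ : Type*} [TopologicalSpace E₁] [Zero E₁] [TopologicalSpace E₂] [Zero E₂]

/-- Sums in separate variables of right-trivial families are right-trivial. -/
theorem RightTrivial.add {G : E₁ × ℂ → ℂ} {H : E₂ × ℂ → ℂ} (hG : RightTrivial G)
    (hH : RightTrivial H) :
    RightTrivial (fun p : (E₁ × E₂) × ℂ => G (p.1.1, p.2) + H (p.1.2, p.2)) := by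
  obtain ⟨r₁, hr₁, Φ₁, hs₁, h0₁, hp₁⟩ := hG
  obtain ⟨r₂, hr₂, Φ₂, hs₂, h0₂, hp₂⟩ := hH
  have hsym₁ : ∀ q ∈ Φ₁.target, (Φ₁.symm q).2 = q.2 := by
    intro q hq
    have h1 := (hp₁ _ (Φ₁.map_target hq)).1
    rw [Φ₁.right_inv hq] at h1
    exact h1.symm
  have hsym₂ : ∀ q ∈ Φ₂.target, (Φ₂.symm q).2 = q.2 := by
    intro q hq
    have h1 := (hp₂ _ (Φ₂.map_target hq)).1
    rw [Φ₂.right_inv hq] at h1
    exact h1.symm
  have c₁ : Continuous (fun p : (E₁ × E₂) × ℂ => (p.1.1, p.2)) := by fun_prop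
  have c₂ : Continuous (fun p : (E₁ × E₂) × ℂ => (p.1.2, p.2)) := by fun_prop
  let Φ : OpenPartialHomeomorph ((E₁ × E₂) × ℂ) ((E₁ × E₂) × ℂ) :=
    { toFun := fun p => (((Φ₁ (p.1.1, p.2)).1, (Φ₂ (p.1.2, p.2)).1), p.2)
      invFun := fun p => (((Φ₁.symm (p.1.1, p.2)).1, (Φ₂.symm (p.1.2, p.2)).1), p.2)
      source := {p | (p.1.1, p.2) ∈ Φ₁.source ∧ (p.1.2, p.2) ∈ Φ₂.source}
      target := {p | (p.1.1, p.2) ∈ Φ₁.target ∧ (p.1.2, p.2) ∈ Φ₂.target}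
      map_source' := by
        rintro p ⟨h1, h2⟩
        constructor
        · have e : ((Φ₁ (p.1.1, p.2)).1, p.2) = Φ₁ (p.1.1, p.2) :=
            Prod.ext rfl (hp₁ _ h1).1.symm
          show ((Φ₁ (p.1.1, p.2)).1, p.2) ∈ Φ₁.target
          rw [e]; exact Φ₁.map_source h1
        · have e : ((Φ₂ (p.1.2, p.2)).1, p.2) = Φ₂ (p.1.2, p.2) :=
            Prod.ext rfl (hp₂ _ h2).1.symm
          show ((Φ₂ (p.1.2, p.2)).1, p.2) ∈ Φ₂.target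
          rw [e]; exact Φ₂.map_source h2
      map_target' := by
        rintro p ⟨h1, h2⟩
        constructor
        · have e : ((Φ₁.symm (p.1.1, p.2)).1, p.2) = Φ₁.symm (p.1.1, p.2) :=
            Prod.ext rfl (hsym₁ _ h1).symm
          show ((Φ₁.symm (p.1.1, p.2)).1, p.2) ∈ Φ₁.source
          rw [e]; exact Φ₁.map_target h1
        · have e : ((Φ₂.symm (p.1.2, p.2)).1, p.2) = Φ₂.symm (p.1.2, p.2) :=
            Prod.ext rfl (hsym₂ _ h2).symm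
          show ((Φ₂.symm (p.1.2, p.2)).1, p.2) ∈ Φ₂.source
          rw [e]; exact Φ₂.map_target h2
      left_inv' := by
        rintro p ⟨h1, h2⟩
        have e1 : ((Φ₁ (p.1.1, p.2)).1, p.2) = Φ₁ (p.1.1, p.2) :=
          Prod.ext rfl (hp₁ _ h1).1.symm
        have e2 : ((Φ₂ (p.1.2, p.2)).1, p.2) = Φ₂ (p.1.2, p.2) :=
          Prod.ext rfl (hp₂ _ h2).1.symm
        show (((Φ₁.symm ((Φ₁ (p.1.1, p.2)).1, p.2)).1,
          (Φ₂.symm ((Φ₂ (p.1.2, p.2)).1, p.2)).1), p.2) = p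
        rw [e1, e2, Φ₁.left_inv h1, Φ₂.left_inv h2]
      right_inv' := by
        rintro p ⟨h1, h2⟩
        have e1 : ((Φ₁.symm (p.1.1, p.2)).1, p.2) = Φ₁.symm (p.1.1, p.2) :=
          Prod.ext rfl (hsym₁ _ h1).symm
        have e2 : ((Φ₂.symm (p.1.2, p.2)).1, p.2) = Φ₂.symm (p.1.2, p.2) :=
          Prod.ext rfl (hsym₂ _ h2).symm
        show (((Φ₁ ((Φ₁.symm (p.1.1, p.2)).1, p.2)).1,
          (Φ₂ ((Φ₂.symm (p.1.2, p.2)).1, p.2)).1), p.2) = p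
        rw [e1, e2, Φ₁.right_inv h1, Φ₂.right_inv h2]
      open_source := (Φ₁.open_source.preimage c₁).inter (Φ₂.open_source.preimage c₂)
      open_target := (Φ₁.open_target.preimage c₁).inter (Φ₂.open_target.preimage c₂)
      continuousOn_toFun := by
        have k1 : ContinuousOn (fun p : (E₁ × E₂) × ℂ => Φ₁ (p.1.1, p.2))
            {p | (p.1.1, p.2) ∈ Φ₁.source ∧ (p.1.2, p.2) ∈ Φ₂.source} :=
          Φ₁.continuousOn.comp c₁.continuousOn (fun p hp => hp.1)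
        have k2 : ContinuousOn (fun p : (E₁ × E₂) × ℂ => Φ₂ (p.1.2, p.2))
            {p | (p.1.1, p.2) ∈ Φ₁.source ∧ (p.1.2, p.2) ∈ Φ₂.source} :=
          Φ₂.continuousOn.comp c₂.continuousOn (fun p hp => hp.2)
        exact (k1.fst.prodMk k2.fst).prodMk continuous_snd.continuousOn
      continuousOn_invFun := by
        have k1 : ContinuousOn (fun p : (E₁ × E₂) × ℂ => Φ₁.symm (p.1.1, p.2))
            {p | (p.1.1, p.2) ∈ Φ₁.target ∧ (p.1.2, p.2) ∈ Φ₂.target} :=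
          Φ₁.continuousOn_symm.comp c₁.continuousOn (fun p hp => hp.1)
        have k2 : ContinuousOn (fun p : (E₁ × E₂) × ℂ => Φ₂.symm (p.1.2, p.2))
            {p | (p.1.1, p.2) ∈ Φ₁.target ∧ (p.1.2, p.2) ∈ Φ₂.target} :=
          Φ₂.continuousOn_symm.comp c₂.continuousOn (fun p hp => hp.2)
        exact (k1.fst.prodMk k2.fst).prodMk continuous_snd.continuousOn }
  refine ⟨min r₁ r₂, lt_min hr₁ hr₂, Φ, ?_, ?_, ?_⟩
  · rintro p ⟨h1, h2⟩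
    have a1 : p.2 ∈ ball (0 : ℂ) r₁ := hs₁ h1
    have a2 : p.2 ∈ ball (0 : ℂ) r₂ := hs₂ h2
    show p.2 ∈ ball (0 : ℂ) (min r₁ r₂)
    rw [mem_ball] at *
    exact lt_min a1 a2
  · intro t ht
    have t1 : t ∈ ball (0 : ℂ) r₁ := ball_subset_ball (min_le_left _ _) ht
    have t2 : t ∈ ball (0 : ℂ) r₂ := ball_subset_ball (min_le_right _ _) ht
    refine ⟨⟨(h0₁ t t1).1, (h0₂ t t2).1⟩, ?_⟩
    show (((Φ₁ (0, t)).1, (Φ₂ (0, t)).1), t) = (0, t)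
    rw [(h0₁ t t1).2, (h0₂ t t2).2]
    rfl
  · rintro p ⟨h1, h2⟩
    refine ⟨rfl, ?_⟩
    have e1 : ((Φ₁ (p.1.1, p.2)).1, p.2) = Φ₁ (p.1.1, p.2) :=
      Prod.ext rfl (hp₁ _ h1).1.symm
    have e2 : ((Φ₂ (p.1.2, p.2)).1, p.2) = Φ₂ (p.1.2, p.2) :=
      Prod.ext rfl (hp₂ _ h2).1.symm
    show G ((Φ₁ (p.1.1, p.2)).1, p.2) + H ((Φ₂ (p.1.2, p.2)).1, p.2)
      = G (p.1.1, 0) + H (p.1.2, 0)
    rw [e1, e2, (hp₁ _ h1).2, (hp₂ _ h2).2]

end Vale.Agent.Lib.P298
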